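import Vale.Agent.P092.R2.H559.Defs

/-!
The groups `Gam n = ℤ^{2n} ⋊ Sp_{2n}(ℤ)` and `Lam n` are ICC; more precisely every nontrivial
element of `Gam n` has infinitely many conjugates under `Lam n`.
-/

namespace Vale.Agent.P092.R2.H653

open Matrix Vale.Agent.P092.R2.H559

variable {n : ℕ}

/-- A function `ℤ → X` such that `k ↦ F (f k)` is injective for some `F` has infinite range, hence
any set which contains the range is infinite. -/
theorem inf_of_inj {X : Type} {S : Set X} (f : ℤ → X) (hf : Function.Injective f)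
    (h : ∀ k, f k ∈ S) : S.Infinite :=
  (Set.infinite_range_of_injective hf).mono (by rintro _ ⟨k, rfl⟩; exact h k)

/-! ### Conjugates in `Gam n` -/

/-- the translation by `u` -/
def tr (u : Lat n) : Gam n := ⟨Multiplicative.ofAdd u, 1⟩

/-- the element `(0, g)` -/
def sec (g : Sp n) : Gam n := ⟨1, g⟩

theorem toAdd_mul_left (x y : Gam n) : Multiplicative.toAdd (x * y).left =
    Multiplicative.toAdd x.left + mt x.right *ᵥ Multiplicative.toAdd y.left := rfl

theorem toAdd_inv_left (x : Gam n) : Multiplicative.toAdd (x⁻¹).left =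
    -(mt x.right⁻¹ *ᵥ Multiplicative.toAdd x.left) := by
  change mt x.right⁻¹ *ᵥ (-(Multiplicative.toAdd x.left)) = _
  rw [mulVec_neg]

theorem conj_tr (u : Lat n) (x : Gam n) : Multiplicative.toAdd (tr u * x * (tr u)⁻¹).left =
    u + Multiplicative.toAdd x.left - mt x.right *ᵥ u := by
  rw [toAdd_mul_left, toAdd_mul_left, toAdd_inv_left]
  change u + mt (1 : Sp n) *ᵥ Multiplicative.toAdd x.left +
    mt (1 * x.right) *ᵥ (-(mt (1 : Sp n)⁻¹ *ᵥ u)) = _
  rw [one_mul, inv_one, mt_one, mt_one, mulVec_neg, sub_eq_add_neg]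

theorem conj_sec (g : Sp n) (x : Gam n) :
    Multiplicative.toAdd (sec g * x * (sec g)⁻¹).left = mt g *ᵥ Multiplicative.toAdd x.left := by
  rw [toAdd_mul_left, toAdd_mul_left, toAdd_inv_left]
  change 0 + mt g *ᵥ Multiplicative.toAdd x.left +
    mt (g * x.right) *ᵥ (-(mt (g⁻¹ : Sp n) *ᵥ (0 : Lat n))) = _
  rw [mulVec_zero, neg_zero, mulVec_zero, zero_add, add_zero]

/-! ### Some elements of `Lam n` -/

theorem tr_mem (u : Lat n) : tr ((2 : ℤ) • u) ∈ Lam n := by
  rw [mem_Lam]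
  intro m
  change Even (om ((2 : ℤ) • u) m + qf m + qf (mt (1 : Sp n)⁻¹ *ᵥ m))
  rw [inv_one, mt_one]
  have h : om ((2 : ℤ) • u) m = om u m + om u m := by
    rw [two_smul, om_add_left]
  rw [h]
  exact ⟨om u m + qf m, by ring⟩

/-- the unipotent block matrix `[[1, k], [0, 1]]` -/
def up (k : ℤ) : Sp n := ⟨fromBlocks 1 (k • (1 : Matrix (Fin n) (Fin n) ℤ)) 0 1, by
  rw [SymplecticGroup.mem_iff, J, fromBlocks_transpose, fromBlocks_multiply, fromBlocks_multiply]
  simp⟩

/-- the unipotent block matrix `[[1, 0], [k, 1]]` -/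
def lo (k : ℤ) : Sp n := ⟨fromBlocks 1 0 (k • (1 : Matrix (Fin n) (Fin n) ℤ)) 1, by
  rw [SymplecticGroup.mem_iff, J, fromBlocks_transpose, fromBlocks_multiply, fromBlocks_multiply]
  simp⟩

theorem up_inl (k : ℤ) (m : Lat n) (i : Fin n) :
    (mt (up k) *ᵥ m) (Sum.inl i) = m (Sum.inl i) + k * m (Sum.inr i) := by
  change (fromBlocks 1 (k • (1 : Matrix (Fin n) (Fin n) ℤ)) 0 1 *ᵥ m) (Sum.inl i) = _
  rw [fromBlocks_mulVec]
  simp

theorem up_inr (k : ℤ) (m : Lat n) (i : Fin n) :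
    (mt (up k) *ᵥ m) (Sum.inr i) = m (Sum.inr i) := by
  change (fromBlocks 1 (k • (1 : Matrix (Fin n) (Fin n) ℤ)) 0 1 *ᵥ m) (Sum.inr i) = _
  rw [fromBlocks_mulVec]
  simp

theorem lo_inl (k : ℤ) (m : Lat n) (i : Fin n) :
    (mt (lo k) *ᵥ m) (Sum.inl i) = m (Sum.inl i) := by
  change (fromBlocks 1 0 (k • (1 : Matrix (Fin n) (Fin n) ℤ)) 1 *ᵥ m) (Sum.inl i) = _
  rw [fromBlocks_mulVec]
  simp

theorem lo_inr (k : ℤ) (m : Lat n) (i : Fin n) :
    (mt (lo k) *ᵥ m) (Sum.inr i) = m (Sum.inr i) + k * m (Sum.inl i) := by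
  change (fromBlocks 1 0 (k • (1 : Matrix (Fin n) (Fin n) ℤ)) 1 *ᵥ m) (Sum.inr i) = _
  rw [fromBlocks_mulVec]
  simp [add_comm]

/-- An element of `Sp` whose inverse preserves `q` mod 2 lies in `Lam`. -/
theorem sec_mem {g : Sp n} (h : ∀ m : Lat n, Even (qf (mt g *ᵥ m) + qf m)) : sec g ∈ Lam n := by
  rw [mem_Lam]
  intro m
  change Even (om (0 : Lat n) m + qf m + qf (mt g⁻¹ *ᵥ m))
  rw [om_zero_left, zero_add]
  have h1 := h (mt g⁻¹ *ᵥ m)
  rw [mt_mulVec_inv] at h1
  exact h1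

theorem up_mem (k : ℤ) : sec (up (n := n) (2 * k)) ∈ Lam n := by
  refine sec_mem fun m => ?_
  refine ⟨qf m + k * ∑ i, m (Sum.inr i) * m (Sum.inr i), ?_⟩
  simp only [qf, up_inl, up_inr, Finset.mul_sum, ← Finset.sum_add_distrib]
  exact Finset.sum_congr rfl fun i _ => by ring

theorem lo_mem (k : ℤ) : sec (lo (n := n) (2 * k)) ∈ Lam n := by
  refine sec_mem fun m => ?_
  refine ⟨qf m + k * ∑ i, m (Sum.inl i) * m (Sum.inl i), ?_⟩
  simp only [qf, lo_inl, lo_inr, Finset.mul_sum, ← Finset.sum_add_distrib]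
  exact Finset.sum_congr rfl fun i _ => by ring

/-! ### The ICC property -/

/-- Every nontrivial element of `Gam n` has infinitely many conjugates by elements of `Lam n`. -/
theorem icc_aux {x : Gam n} (hx : x ≠ 1) :
    Set.Infinite {y : Gam n | ∃ h ∈ Lam n, y = h * x * h⁻¹} := by
  by_cases hg : x.right = 1
  · have hu : Multiplicative.toAdd x.left ≠ 0 := by
      intro h0
      exact hx (SemidirectProduct.ext (Multiplicative.toAdd.injective h0) hg)
    obtain ⟨j, hj⟩ : ∃ j, Multiplicative.toAdd x.left j ≠ 0 := by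
      by_contra hcon
      push Not at hcon
      exact hu (funext hcon)
    rcases j with j | j
    · refine inf_of_inj (fun k => sec (lo (2 * k)) * x * (sec (lo (2 * k)))⁻¹) ?_
        fun k => ⟨_, lo_mem k, rfl⟩
      intro k l hkl
      have h1 := congrArg (fun y : Gam n => Multiplicative.toAdd y.left (Sum.inr j)) hkl
      simp only [conj_sec _ x, lo_inr] at h1
      have h2 : (k - l) * Multiplicative.toAdd x.left (Sum.inl j) = 0 := by linarith
      rcases mul_eq_zero.mp h2 with h3 | h3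
      · linarith
      · exact absurd h3 hj
    · refine inf_of_inj (fun k => sec (up (2 * k)) * x * (sec (up (2 * k)))⁻¹) ?_
        fun k => ⟨_, up_mem k, rfl⟩
      intro k l hkl
      have h1 := congrArg (fun y : Gam n => Multiplicative.toAdd y.left (Sum.inl j)) hkl
      simp only [conj_sec _ x, up_inl] at h1
      have h2 : (k - l) * Multiplicative.toAdd x.left (Sum.inr j) = 0 := by linarith
      rcases mul_eq_zero.mp h2 with h3 | h3
      · linarith
      · exact absurd h3 hj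
  · obtain ⟨v, hv⟩ : ∃ v : Lat n, v - mt x.right *ᵥ v ≠ 0 := by
      by_contra hcon
      push Not at hcon
      apply hg
      apply Subtype.ext
      change mt x.right = 1
      refine Matrix.ext_of_mulVec_single fun i => ?_
      rw [one_mulVec]
      exact (sub_eq_zero.mp (hcon _)).symm
    obtain ⟨j, hj⟩ : ∃ j, (v - mt x.right *ᵥ v) j ≠ 0 := by
      by_contra hcon
      push Not at hcon
      exact hv (funext hcon)
    refine inf_of_inj (fun k => tr ((2 : ℤ) • (k • v)) * x * (tr ((2 : ℤ) • (k • v)))⁻¹) ?_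
      fun k => ⟨_, tr_mem _, rfl⟩
    intro k l hkl
    have h1 := congrArg (fun y : Gam n => Multiplicative.toAdd y.left j) hkl
    simp only [conj_tr] at h1
    simp only [mulVec_smul, Pi.add_apply, Pi.sub_apply, Pi.smul_apply, smul_eq_mul] at h1
    have h2 : (k - l) * (v - mt x.right *ᵥ v) j = 0 := by
      rw [Pi.sub_apply]
      linarith
    rcases mul_eq_zero.mp h2 with h3 | h3
    · linarith
    · exact absurd h3 hj

/-- `Gam n = ℤ^{2n} ⋊ Sp_{2n}(ℤ)` is ICC. -/
theorem icc_Gam (n : ℕ) (x : Gam n) (hx : x ≠ 1) :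
    Set.Infinite {y : Gam n | ∃ h, y = h * x * h⁻¹} := by
  refine (icc_aux hx).mono ?_
  rintro y ⟨h, _, e⟩
  exact ⟨h, e⟩

/-- `Lam n` is ICC. -/
theorem icc_Lam (n : ℕ) (x : Lam n) (hx : x ≠ 1) :
    Set.Infinite {y : Lam n | ∃ h, y = h * x * h⁻¹} := by
  have h1 : (x : Gam n) ≠ 1 := fun h => hx (Subtype.ext h)
  refine Set.Infinite.of_image (Subtype.val : Lam n → Gam n) ?_
  refine (icc_aux h1).mono ?_
  rintro y ⟨h, hh, rfl⟩
  let h' : Lam n := ⟨h, hh⟩
  exact ⟨h' * x * h'⁻¹, ⟨h', rfl⟩, rfl⟩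

/-- Every subgroup of `Gam n` which contains `Lam n` is ICC. -/
theorem icc_of_le {G : Subgroup (Gam n)} (hG : Lam n ≤ G) (x : G) (hx : x ≠ 1) :
    Set.Infinite {y : G | ∃ h, y = h * x * h⁻¹} := by
  have h1 : (x : Gam n) ≠ 1 := fun h => hx (Subtype.ext h)
  refine Set.Infinite.of_image (Subtype.val : G → Gam n) ?_
  refine (icc_aux h1).mono ?_
  rintro y ⟨h, hh, rfl⟩
  let h' : G := ⟨h, hG hh⟩
  exact ⟨h' * x * h'⁻¹, ⟨h', rfl⟩, rfl⟩

end Vale.Agent.P092.R2.H653
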