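import Vale.Agent.P092.R2.H559.Surj
import Vale.Agent.P092.R2.H653.Icc

/-!
For `n ≥ 2` the groups `Gam n = ℤ^{2n} ⋊ Sp_{2n}(ℤ)` and `Lam n` are not isomorphic.

The property which distinguishes them: there is `z ≠ 1` with `z² = 1` such that for every `g` the
element `z g z g⁻¹` is the square of an element which commutes with all its conjugates.
-/

namespace Vale.Agent.P092.R2.H653

open Matrix Vale.Agent.P092.R2.H559

variable {n : ℕ}

/-! ### Symplectic transvections -/

theorem om_zero_right (u : Lat n) : om u (0 : Lat n) = 0 := by simp [om]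

theorem om_smul_left (k : ℤ) (u m : Lat n) : om (k • u) m = k * om u m := by
  simp only [om, Pi.smul_apply, smul_eq_mul, Finset.mul_sum]
  exact Finset.sum_congr rfl fun i _ => by ring

theorem om_smul_right (k : ℤ) (u m : Lat n) : om u (k • m) = k * om u m := by
  rw [om_swap, om_smul_left, om_swap m]; ring

theorem om_self (u : Lat n) : om u u = 0 := by
  simp only [om]
  exact Finset.sum_eq_zero fun i _ => by ring

/-- A matrix which preserves `ω` lies in `Sp`. -/
theorem mem_Sp (A : Matrix (Fin n ⊕ Fin n) (Fin n ⊕ Fin n) ℤ)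
    (h : ∀ u m : Lat n, om (A *ᵥ u) (A *ᵥ m) = om u m) : A ∈ symplecticGroup (Fin n) ℤ := by
  rw [SymplecticGroup.mem_iff']
  have h1 : ∀ u m : Lat n, u ⬝ᵥ ((Aᵀ * J (Fin n) ℤ * A) *ᵥ m) = u ⬝ᵥ (J (Fin n) ℤ *ᵥ m) := by
    intro u m
    have h2 := h u m
    rw [om_eq, om_eq, neg_inj] at h2
    rw [← h2, ← mulVec_mulVec, ← mulVec_mulVec, dotProduct_mulVec u, vecMul_transpose]
  refine Matrix.ext_of_mulVec_single fun j => ?_
  funext i
  have h3 := h1 (Pi.single i 1) (Pi.single j 1)
  rw [single_dotProduct, single_dotProduct, one_mul, one_mul] at h3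
  exact h3

/-- The matrix of the transvection `m ↦ m + k ω(w, m) w`. -/
def tvM (k : ℤ) (w : Lat n) : Matrix (Fin n ⊕ Fin n) (Fin n ⊕ Fin n) ℤ :=
  1 + vecMulVec (k • w) (rot w)

theorem rot_dot (u m : Lat n) : rot u ⬝ᵥ m = om u m := by
  rw [← omA_int, omA]
  rfl

theorem tvM_mulVec (k : ℤ) (w m : Lat n) : tvM k w *ᵥ m = m + (k * om w m) • w := by
  rw [tvM, add_mulVec, one_mulVec, vecMulVec_mulVec, rot_dot]
  funext i
  simp only [Pi.add_apply, Pi.smul_apply, smul_eq_mul, MulOpposite.smul_eq_mul_unop,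
    MulOpposite.unop_op]
  ring

/-- The transvection `m ↦ m + k ω(w, m) w`. -/
def tv (k : ℤ) (w : Lat n) : Sp n := ⟨tvM k w, mem_Sp _ fun u m => by
  rw [tvM_mulVec, tvM_mulVec, om_add_left, om_add_right, om_add_right, om_smul_left,
    om_smul_left, om_smul_right, om_smul_right, om_self, om_swap u w]
  ring⟩

theorem tv_mulVec (k : ℤ) (w m : Lat n) : mt (tv k w) *ᵥ m = m + (k * om w m) • w :=
  tvM_mulVec k w m

theorem tv_inv_mulVec (k : ℤ) (w m : Lat n) : mt (tv k w)⁻¹ *ᵥ m = m - (k * om w m) • w := by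
  have h : mt (tv k w) *ᵥ (m - (k * om w m) • w) = m := by
    rw [tv_mulVec, sub_eq_add_neg, om_add_right, ← neg_smul, om_smul_right, om_self]
    module
  conv_lhs => rw [← h]
  rw [mt_inv_mulVec]

/-! ### Elements of `Sp` which commute with their conjugates -/

/-- `t (1 + kN) t (1 - kN) = (1 + kN) t (1 - kN) t` -/
theorem comm_eq {t : Sp n} (ht : ∀ g : Sp n, t * (g * t * g⁻¹) = g * t * g⁻¹ * t) (k : ℤ)
    (w m : Lat n) :
    mt t *ᵥ (mt (tv k w) *ᵥ (mt t *ᵥ (mt (tv k w)⁻¹ *ᵥ m))) =
      mt (tv k w) *ᵥ (mt t *ᵥ (mt (tv k w)⁻¹ *ᵥ (mt t *ᵥ m))) := by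
  have h := congrArg (fun x : Sp n => mt x *ᵥ m) (ht (tv k w))
  simp only [mt_mulVec] at h
  exact h

theorem key_eq {t : Sp n} (ht : ∀ g : Sp n, t * (g * t * g⁻¹) = g * t * g⁻¹ * t)
    (w m : Lat n) :
    2 * (om w m * om w m) = om (mt t *ᵥ w) m * om (mt t *ᵥ w) m +
      om (mt t⁻¹ *ᵥ w) m * om (mt t⁻¹ *ᵥ w) m := by
  have h1 := comm_eq ht 1 w (mt t⁻¹ *ᵥ m)
  have h2 := comm_eq ht (-1) w (mt t⁻¹ *ᵥ m)
  have e1 : ∀ x y : Lat n, x = y → om (mt t *ᵥ m) x = om (mt t *ᵥ m) y := fun x y h => by rw [h]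
  have h3 := e1 _ _ h1
  have h4 := e1 _ _ h2
  simp only [tv_mulVec, tv_inv_mulVec, mulVec_add, mulVec_smul, mt_mulVec_inv,
    om_add_right, om_smul_right, sub_eq_add_neg, ← neg_smul, om_act] at h3 h4
  have f1 : om w (mt t⁻¹ *ᵥ m) = om (mt t *ᵥ w) m := (om_act_left t w m).symm
  have f2 : om m (mt t *ᵥ w) = -om (mt t *ᵥ w) m := om_swap _ _
  have f3 : om (mt t *ᵥ m) w = -om (mt t⁻¹ *ᵥ w) m := by
    rw [om_swap, om_act_left t⁻¹ w m, inv_inv]
  have f4 : om m w = -om w m := om_swap _ _
  have f5 : om w (mt t *ᵥ m) = om (mt t⁻¹ *ᵥ w) m := by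
    rw [om_act_left t⁻¹ w m, inv_inv]
  simp only [f1, f2, f3, f4, f5] at h3 h4
  linarith

theorem om_zero_of {t : Sp n} (ht : ∀ g : Sp n, t * (g * t * g⁻¹) = g * t * g⁻¹ * t)
    {w m : Lat n} (h : om w m = 0) : om (mt t *ᵥ w) m = 0 := by
  have h1 := key_eq ht w m
  rw [h] at h1
  have h2 := mul_self_nonneg (om (mt t *ᵥ w) m)
  have h3 := mul_self_nonneg (om (mt t⁻¹ *ᵥ w) m)
  exact mul_self_eq_zero.mp (by linarith)

theorem om_rot_single (u : Lat n) (j : Fin n ⊕ Fin n) : om u (rot (Pi.single j 1)) = u j := by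
  rw [om_swap, ← rot_dot, rot_rot, neg_dotProduct, neg_neg, single_dotProduct, one_mul]

theorem par {t : Sp n} (ht : ∀ g : Sp n, t * (g * t * g⁻¹) = g * t * g⁻¹ * t)
    (w : Lat n) (j k : Fin n ⊕ Fin n) :
    (mt t *ᵥ w) j * w k = (mt t *ᵥ w) k * w j := by
  have h := om_zero_of ht (w := w)
    (m := w k • rot (Pi.single j 1) + (-w j) • rot (Pi.single k 1)) (by
      rw [om_add_right, om_smul_right, om_smul_right, om_rot_single, om_rot_single]; ring)
  rw [om_add_right, om_smul_right, om_smul_right, om_rot_single, om_rot_single] at h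
  linarith

/-- An element of `Sp_{2n}(ℤ)` which commutes with all its conjugates is `±1`. -/
theorem eq_one_or_neg_one {t : Sp n} (ht : ∀ g : Sp n, t * (g * t * g⁻¹) = g * t * g⁻¹ * t) :
    mt t = 1 ∨ mt t = -1 := by
  have h0 : ∀ j k, j ≠ k → mt t j k = 0 := by
    intro j k hjk
    have h := par ht (Pi.single k 1) j k
    rw [mulVec_single_one, Pi.single_eq_same, Pi.single_eq_of_ne hjk, mul_one, mul_zero] at h
    exact h
  have h1 : ∀ j k, mt t j j = mt t k k := by
    intro j k
    by_cases hjk : j = k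
    · rw [hjk]
    · have h := par ht (Pi.single j 1 + Pi.single k 1) j k
      rw [mulVec_add, mulVec_single_one, mulVec_single_one] at h
      simp only [Pi.add_apply, Pi.single_eq_same, Pi.single_eq_of_ne hjk,
        Pi.single_eq_of_ne (Ne.symm hjk), col_apply, h0 _ _ hjk, h0 _ _ (Ne.symm hjk),
        add_zero, zero_add, mul_one] at h
      exact h
  rcases Nat.eq_zero_or_pos n with hn | hn
  · subst hn
    left
    ext j
    rcases j with j | j <;> exact j.elim0
  · let i0 : Fin n := ⟨0, hn⟩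
    let c : ℤ := mt t (Sum.inl i0) (Sum.inl i0)
    have hc : mt t = c • 1 := by
      ext j k
      rw [Matrix.smul_apply, one_apply]
      split_ifs with hjk
      · subst hjk
        rw [smul_eq_mul, mul_one]
        exact h1 _ _
      · rw [smul_zero]
        exact h0 _ _ hjk
    have h2 := om_act t (Pi.single (Sum.inl i0) 1) (Pi.single (Sum.inr i0) 1)
    rw [hc, smul_mulVec, smul_mulVec, one_mulVec, one_mulVec, om_smul_left, om_smul_right] at h2
    have h3 : om (Pi.single (Sum.inl i0) 1 : Lat n) (Pi.single (Sum.inr i0) 1) = 1 := by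
      rw [om_single]
      simp [rot]
    rw [h3, mul_one] at h2
    rcases mul_self_eq_one_iff.mp h2 with h4 | h4
    · left; rw [hc, h4, one_smul]
    · right; rw [hc, h4, neg_smul, one_smul]

/-! ### The property -/

/-- There is `z ≠ 1` with `z² = 1` such that for every `g` the element `z g z g⁻¹` is the square
of an element which commutes with all its conjugates. -/
def PiP (G : Type) [Group G] : Prop :=
  ∃ z : G, z ≠ 1 ∧ z * z = 1 ∧ ∀ g : G, ∃ x : G, (∀ h : G, x * (h * x * h⁻¹) = h * x * h⁻¹ * x) ∧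
    z * g * z * g⁻¹ = x * x

theorem PiP.congr {G H : Type} [Group G] [Group H] (e : G ≃* H) (h : PiP G) : PiP H := by
  obtain ⟨z, h1, h2, h3⟩ := h
  refine ⟨e z, fun h => h1 ?_, ?_, fun g => ?_⟩
  · exact e.injective (by rw [h, map_one])
  · rw [← map_mul, h2, map_one]
  · obtain ⟨x, hx, hg⟩ := h3 (e.symm g)
    refine ⟨e x, fun k => ?_, ?_⟩
    · have h4 := congrArg e (hx (e.symm k))
      simpa only [map_mul, map_inv, e.apply_symm_apply] using h4
    · have h4 := congrArg e hg
      simpa only [map_mul, map_inv, e.apply_symm_apply] using h4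

theorem gam_ext {x y : Gam n} (h : Multiplicative.toAdd x.left = Multiplicative.toAdd y.left)
    (h' : mt x.right = mt y.right) : x = y :=
  SemidirectProduct.ext (Multiplicative.toAdd.injective h) (Subtype.ext h')

theorem neg_one_mem : (-1 : Matrix (Fin n ⊕ Fin n) (Fin n ⊕ Fin n) ℤ) ∈
    symplecticGroup (Fin n) ℤ := mem_Sp _ fun u m => by
  rw [neg_mulVec, neg_mulVec, one_mulVec, one_mulVec, om_neg_left, om_swap, om_neg_left, om_swap]
  ring

/-- `Gam n` has the property. -/
theorem pi_Gam (i0 : Fin n) : PiP (Gam n) := by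
  let ε : Sp n := ⟨-1, neg_one_mem⟩
  have hε : ∀ m : Lat n, mt ε *ᵥ m = -m := fun m => by
    change (-1 : Matrix (Fin n ⊕ Fin n) (Fin n ⊕ Fin n) ℤ) *ᵥ m = -m
    rw [neg_mulVec, one_mulVec]
  have hεε : ε * ε = 1 := Subtype.ext (by
    change (-1 : Matrix (Fin n ⊕ Fin n) (Fin n ⊕ Fin n) ℤ) * -1 = 1
    rw [neg_mul_neg, one_mul])
  refine ⟨sec ε, fun h => ?_, ?_, fun g => ?_⟩
  · have h1 : ε = 1 := congrArg (fun x : Gam n => x.right) h
    have h2 := congrArg (fun x : Sp n => mt x (Sum.inl i0) (Sum.inl i0)) h1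
    have h3 : (-1 : Matrix (Fin n ⊕ Fin n) (Fin n ⊕ Fin n) ℤ) (Sum.inl i0) (Sum.inl i0) =
        (1 : Matrix (Fin n ⊕ Fin n) (Fin n ⊕ Fin n) ℤ) (Sum.inl i0) (Sum.inl i0) := h2
    rw [neg_apply, one_apply_eq] at h3
    norm_num at h3
  · refine SemidirectProduct.ext ?_ hεε
    apply Multiplicative.toAdd.injective
    rw [toAdd_mul_left]
    change (0 : Lat n) + mt ε *ᵥ (0 : Lat n) = 0
    rw [mulVec_zero, add_zero]
  · refine ⟨tr (-Multiplicative.toAdd g.left), fun h => ?_, ?_⟩
    · have h1 : (h * tr (-Multiplicative.toAdd g.left) * h⁻¹).right = 1 := by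
        change h.right * 1 * h.right⁻¹ = 1
        rw [mul_one, mul_inv_cancel]
      refine SemidirectProduct.ext ?_ ?_
      · apply Multiplicative.toAdd.injective
        rw [toAdd_mul_left, toAdd_mul_left (h * tr (-Multiplicative.toAdd g.left) * h⁻¹), h1]
        change _ + mt (1 : Sp n) *ᵥ _ = _ + mt (1 : Sp n) *ᵥ _
        rw [mt_one, mt_one, add_comm]
      · change 1 * (h * tr (-Multiplicative.toAdd g.left) * h⁻¹).right =
          (h * tr (-Multiplicative.toAdd g.left) * h⁻¹).right * 1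
        rw [one_mul, mul_one]
    · refine SemidirectProduct.ext ?_ ?_
      · apply Multiplicative.toAdd.injective
        rw [toAdd_mul_left, toAdd_mul_left, toAdd_mul_left, toAdd_mul_left, toAdd_inv_left]
        change (0 : Lat n) + mt ε *ᵥ Multiplicative.toAdd g.left +
          mt (ε * g.right) *ᵥ (0 : Lat n) + mt (ε * g.right * ε) *ᵥ
            (-(mt g.right⁻¹ *ᵥ Multiplicative.toAdd g.left)) =
          -Multiplicative.toAdd g.left + mt (1 : Sp n) *ᵥ (-Multiplicative.toAdd g.left)
        rw [mt_one, mulVec_zero, add_zero, zero_add, mt_mulVec, mt_mulVec, hε, hε, hε,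
          mulVec_neg, mulVec_neg, mt_mulVec_inv, neg_neg]
      · change ε * g.right * ε * g.right⁻¹ = 1 * 1
        have h1 : ε * g.right * ε = g.right := Subtype.ext (by
          change (-1 : Matrix (Fin n ⊕ Fin n) (Fin n ⊕ Fin n) ℤ) * mt g.right * -1 = mt g.right
          rw [neg_mul, one_mul, neg_mul_neg, mul_one])
        rw [h1, mul_inv_cancel, one_mul]

theorem even_of_om {v : Lat n} (h : ∀ m : Lat n, Even (om v m)) : ∃ v' : Lat n,
    v = (2 : ℤ) • v' := by
  have h1 : ∀ j, ∃ k, v j = 2 * k := fun j => by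
    have h2 := h (rot (Pi.single j 1))
    rw [om_rot_single] at h2
    exact h2.two_dvd
  choose f hf using h1
  exact ⟨f, funext fun j => by rw [hf, Pi.smul_apply, smul_eq_mul]⟩

/-- `Lam n` does not have the property, for `n ≥ 2`. -/
theorem not_pi_Lam (hn : 2 ≤ n) : ¬ PiP (Lam n) := by
  rintro ⟨z, hz1, hzz, hz⟩
  -- lifting
  have lift : ∀ g : Sp n, ∃ y : Lam n, (y : Gam n).right = g := fun g => by
    obtain ⟨x, hx, hg⟩ := exists_Lam g
    exact ⟨⟨x, hx⟩, hg⟩
  have hA : ∀ x : Lam n, (∀ h : Lam n, x * (h * x * h⁻¹) = h * x * h⁻¹ * x) →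
      mt (x : Gam n).right = 1 ∨ mt (x : Gam n).right = -1 := by
    intro x hx
    refine eq_one_or_neg_one fun g => ?_
    obtain ⟨y, hy⟩ := lift g
    have h1 := congrArg (fun a : Lam n => (a : Gam n).right) (hx y)
    rw [← hy]
    exact h1
  have hsq : ∀ t : Sp n, (mt t = 1 ∨ mt t = -1) → t * t = 1 := by
    intro t ht
    apply Subtype.ext
    change mt t * mt t = 1
    rcases ht with ht | ht
    · rw [ht, one_mul]
    · rw [ht, neg_mul_neg, one_mul]
  obtain ⟨z, hzL⟩ := z
  have hcent : ∀ g : Sp n, z.right * g * z.right * g⁻¹ = 1 := by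
    intro g
    obtain ⟨y, hy⟩ := lift g
    obtain ⟨x, hx, he⟩ := hz y
    have h1 := congrArg (fun a : Lam n => (a : Gam n).right) he
    have h2 : z.right * (y : Gam n).right * z.right * (y : Gam n).right⁻¹ =
      (x : Gam n).right * (x : Gam n).right := h1
    rw [hsq _ (hA x hx), hy] at h2
    exact h2
  have hh : z.right * z.right = 1 := by
    have h1 := hcent 1
    rwa [mul_one, inv_one, mul_one] at h1
  have hconj : ∀ g : Sp n, g * z.right * g⁻¹ = z.right := by
    intro g
    have h1 := hcent g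
    have h2 : z.right * (g * z.right * g⁻¹) = z.right * z.right := by
      rw [hh, ← h1]; group
    exact mul_left_cancel h2
  have hzpm : mt z.right = 1 ∨ mt z.right = -1 :=
    eq_one_or_neg_one fun g => by rw [hconj]
  have hzz' : z * z = 1 := congrArg (fun a : Lam n => (a : Gam n)) hzz
  set v : Lat n := Multiplicative.toAdd z.left with hv
  rcases hzpm with hz' | hz'
  · have h1 := congrArg (fun a : Gam n => Multiplicative.toAdd a.left) hzz'
    have h2 : v + mt z.right *ᵥ v = 0 := h1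
    rw [hz', one_mulVec] at h2
    have h3 : v = 0 := by
      funext j
      have h4 := congrFun h2 j
      have h5 : v j + v j = 0 := h4
      change v j = 0
      omega
    apply hz1
    apply Subtype.ext
    exact gam_ext h3 hz'
  · have hzi : mt z.right⁻¹ = -1 := by
      have h1 : z.right⁻¹ = z.right := inv_eq_of_mul_eq_one_left hh
      rw [h1, hz']
    obtain ⟨v', hv'⟩ := even_of_om (v := v) fun m => by
      have h1 := hzL m
      have h2 : ((z.right⁻¹ : Sp n) : Matrix (Fin n ⊕ Fin n) (Fin n ⊕ Fin n) ℤ) *ᵥ m = -m := by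
        change mt z.right⁻¹ *ᵥ m = -m
        rw [hzi, neg_mulVec, one_mulVec]
      rw [h2] at h1
      have h3 : qf (-m) = qf m := by simp [qf]
      rw [h3] at h1
      have h4 : om v m = om v m + qf m + qf m - 2 * qf m := by ring
      rw [h4]
      exact h1.sub (even_two_mul _)
    -- the quadratic refinement
    have hQ : ∀ w m : Lat n, om w m = 1 → Even (om w v' + qf w + 1) := by
      intro w m hwm
      obtain ⟨y, hy⟩ := lift (tv 1 w)
      obtain ⟨x, hx, he⟩ := hz y
      set u : Lat n := Multiplicative.toAdd (y : Gam n).left with hu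
      set a : Lat n := Multiplicative.toAdd (x : Gam n).left with ha
      have h1 := congrArg (fun b : Lam n => Multiplicative.toAdd (b : Gam n).left) he
      have h2 : v + mt z.right *ᵥ u + mt (z.right * (y : Gam n).right) *ᵥ v +
          mt (z.right * (y : Gam n).right * z.right) *ᵥ (-(mt (y : Gam n).right⁻¹ *ᵥ u)) =
          a + mt (x : Gam n).right *ᵥ a := by
        rw [← toAdd_inv_left]
        exact h1
      rw [mt_mulVec, mt_mulVec, mt_mulVec, hz', neg_mulVec, neg_mulVec, neg_mulVec, neg_mulVec,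
        one_mulVec, one_mulVec, one_mulVec, one_mulVec, neg_neg, mt_mulVec_inv, hv', mulVec_smul]
        at h2
      -- the right-hand side is divisible by 4
      have h3 : ∃ b : Lat n, a + mt (x : Gam n).right *ᵥ a = (4 : ℤ) • b := by
        rcases hA x hx with hx1 | hx1
        · obtain ⟨a', ha'⟩ := even_of_om (v := a) fun m' => by
            have h4 := x.2 m'
            have h5 : (((x : Gam n).right⁻¹ : Sp n) :
                Matrix (Fin n ⊕ Fin n) (Fin n ⊕ Fin n) ℤ) *ᵥ m' = m' := by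
              have h6 : (x : Gam n).right = 1 := Subtype.ext hx1
              rw [h6, inv_one]
              exact mt_one m'
            rw [h5] at h4
            have h7 : om a m' = om a m' + qf m' + qf m' - 2 * qf m' := by ring
            rw [h7]
            exact h4.sub (even_two_mul _)
          refine ⟨a', ?_⟩
          rw [hx1, one_mulVec, ha']
          module
        · refine ⟨0, ?_⟩
          rw [hx1, neg_mulVec, one_mulVec, smul_zero]
          abel
      obtain ⟨b, hb⟩ := h3
      rw [hb] at h2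
      have h4 := congrArg (fun c : Lat n => om c m) h2
      have hyT := y.2 m
      have h5 : (((y : Gam n).right⁻¹ : Sp n) :
          Matrix (Fin n ⊕ Fin n) (Fin n ⊕ Fin n) ℤ) *ᵥ m = m + (-1 : ℤ) • w := by
        rw [hy]
        have h6 := tv_inv_mulVec 1 w m
        rw [hwm] at h6
        change mt (tv 1 w)⁻¹ *ᵥ m = _
        rw [h6]
        module
      rw [h5, qf_add] at hyT
      change Even (om u m + qf m + _) at hyT
      rw [hy, tv_mulVec, one_mul] at h4
      simp only [om_add_left, om_neg_left, om_smul_left, hwm] at h4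
      have h8 : qf ((-1 : ℤ) • w) = qf w := by simp [qf]
      have h9 : om m ((-1 : ℤ) • w) = 1 := by
        rw [om_smul_right, om_swap, hwm]; ring
      rw [h8, h9] at hyT
      obtain ⟨r, hr⟩ := hyT
      exact ⟨r - om b m - om u m - qf m - ∑ i, m (Sum.inr i) * ((-1 : ℤ) • w) (Sum.inl i), by
        linarith⟩
    let i0 : Fin n := ⟨0, by omega⟩
    let i1 : Fin n := ⟨1, by omega⟩
    have h01 : i0 ≠ i1 := fun h => by
      have := congrArg Fin.val h
      simp [i0, i1] at this
    let w0 : Lat n := Pi.single (Sum.inl i0) 1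
    let w1 : Lat n := Pi.single (Sum.inl i1) 1
    have r0 : om w0 (Pi.single (Sum.inr i0) 1) = 1 := by
      rw [om_single]; simp [rot, w0]
    have r1 : om w1 (Pi.single (Sum.inr i1) 1) = 1 := by
      rw [om_single]; simp [rot, w1]
    have r2 : om w1 (Pi.single (Sum.inr i0) 1) = 0 := by
      rw [om_single]; simp [rot, w1, h01]
    have q0 : qf w0 = 0 := by simp [qf, w0]
    have q1 : qf w1 = 0 := by simp [qf, w1]
    have q2 : qf (w0 + w1) = 0 := by simp [qf, w0, w1]
    have a0 := hQ w0 _ r0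
    have a1 := hQ w1 _ r1
    have a2 := hQ (w0 + w1) (Pi.single (Sum.inr i0) 1) (by rw [om_add_left, r0, r2]; norm_num)
    rw [q0] at a0
    rw [q1] at a1
    rw [q2, om_add_left] at a2
    obtain ⟨k0, hk0⟩ := a0
    obtain ⟨k1, hk1⟩ := a1
    obtain ⟨k2, hk2⟩ := a2
    omega

/-- **The groups are not isomorphic.** -/
theorem not_iso (hn : 2 ≤ n) : IsEmpty (Gam n ≃* Lam n) :=
  ⟨fun e => not_pi_Lam hn ((pi_Gam ⟨0, by omega⟩).congr e)⟩

end Vale.Agent.P092.R2.H653
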